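import Mathlib
import Vale.Agent.P227.PL

/-!
P233 stage 3, part (3a), closure-free half: the finite-scale blow-up inequality
(Prekopa-Leindler + Hoelder + layer cake), no measurability of the logarithm maps needed.
-/

open MeasureTheory Metric Set Filter Topology
open scoped ENNReal NNReal

universe u

namespace Vale.Agent.P233.H979.Blow

/-- Prekopa-Leindler on Euclidean space with weights. -/
theorem pl_eucl {s t : ℝ} (hs : 0 < s) (ht : 0 < t) (hst : s + t = 1) {d : ℕ}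
    (f g h : EuclideanSpace ℝ (Fin d) → ℝ≥0∞) (hf : Measurable f) (hg : Measurable g)
    (hh : Measurable h) (hfg : ∀ x y, f x ^ s * g y ^ t ≤ h (s • x + t • y)) :
    (∫⁻ x, f x) ^ s * (∫⁻ x, g x) ^ t ≤ ∫⁻ x, h x := by
  have hvp := PiLp.volume_preserving_toLp (Fin d)
  have htr : ∀ u : EuclideanSpace ℝ (Fin d) → ℝ≥0∞, Measurable u →
      ∫⁻ x, u x = ∫⁻ x : Fin d → ℝ, u (WithLp.toLp 2 x) := by
    intro u hu
    rw [← hvp.lintegral_comp hu]
  have hm : ∀ u : EuclideanSpace ℝ (Fin d) → ℝ≥0∞, Measurable u →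
      Measurable fun x : Fin d → ℝ => u (WithLp.toLp 2 x) := by
    intro u hu
    exact hu.comp hvp.measurable
  rw [htr f hf, htr g hg, htr h hh]
  refine Vale.Agent.P227.pl_pi hs ht hst d _ _ _ (hm f hf) (hm g hg) (hm h hh) ?_
  intro x y
  have := hfg (WithLp.toLp 2 x) (WithLp.toLp 2 y)
  convert this using 2
  ext i
  simp

/-- Layer-cake comparison of two integrals, with an additive error. -/
theorem layer_le {X Y : Type*} [MeasurableSpace X] [MeasurableSpace Y] {m : Measure X}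
    {ν : Measure Y} {φ : X → ℝ} (hφ : Measurable φ) (hφ0 : ∀ x, 0 ≤ φ x)
    {Z : Set X} (hφ1 : ∀ x ∈ Z, φ x ≤ 1) {Ψ : Y → ℝ≥0∞}
    (hΨ : Measurable Ψ) (hΨ1 : ∀ y, Ψ y ≤ 1) {c δ : ℝ≥0∞} (hc : c ≠ ∞)
    (h : ∀ t : ℝ, 0 < t → c * (m.restrict Z) {x | t < φ x} ≤
      ν {y | ENNReal.ofReal t < Ψ y} + δ) :
    c * ∫⁻ x in Z, ENNReal.ofReal (φ x) ∂m ≤ ∫⁻ y, Ψ y ∂ν + δ := by
  have hfin : ∀ y, Ψ y ≠ ∞ := fun y => ne_top_of_le_ne_top ENNReal.one_ne_top (hΨ1 y)
  have h1 : ∫⁻ y, Ψ y ∂ν = ∫⁻ y, ENNReal.ofReal ((Ψ y).toReal) ∂ν :=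
    lintegral_congr fun y => (ENNReal.ofReal_toReal (hfin y)).symm
  have h2 : ∀ t : ℝ, 0 < t → {a : Y | t < (Ψ a).toReal} = {y | ENNReal.ofReal t < Ψ y} := by
    intro t ht
    ext y
    simp only [mem_ofPred_eq]
    rw [ENNReal.ofReal_lt_iff_lt_toReal (le_of_lt ht) (hfin y)]
  rw [h1, lintegral_eq_lintegral_meas_lt _ (Eventually.of_forall hφ0) hφ.aemeasurable,
    lintegral_eq_lintegral_meas_lt ν (Eventually.of_forall fun y => ENNReal.toReal_nonneg)
      hΨ.ennreal_toReal.aemeasurable, ← lintegral_const_mul' _ _ hc]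
  have h3 : ∀ t : ℝ, t ∈ Ioi (0 : ℝ) → c * (m.restrict Z) {x | t < φ x} ≤
      ν {a | t < (Ψ a).toReal} + (Ioo (0 : ℝ) 1).indicator (fun _ => δ) t := by
    intro t ht
    by_cases h4 : t < 1
    · rw [indicator_of_mem (show t ∈ Ioo (0 : ℝ) 1 from ⟨ht, h4⟩), h2 t ht]
      exact h t ht
    · have h5 : (m.restrict Z) {x | t < φ x} = 0 := by
        rw [Measure.restrict_apply (measurableSet_lt measurable_const hφ)]
        have : {x | t < φ x} ∩ Z = ∅ := by
          apply eq_empty_of_forall_notMem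
          rintro x ⟨hx1, hx2⟩
          simp only [mem_ofPred_eq] at hx1
          have := hφ1 x hx2
          linarith
        rw [this, measure_empty]
      rw [h5, mul_zero]
      exact zero_le
  calc ∫⁻ t in Ioi (0 : ℝ), c * (m.restrict Z) {x | t < φ x}
      ≤ ∫⁻ t in Ioi (0 : ℝ), (ν {a | t < (Ψ a).toReal} +
          (Ioo (0 : ℝ) 1).indicator (fun _ => δ) t) := setLIntegral_mono' measurableSet_Ioi h3
    _ = (∫⁻ t in Ioi (0 : ℝ), ν {a | t < (Ψ a).toReal}) +
          ∫⁻ t in Ioi (0 : ℝ), (Ioo (0 : ℝ) 1).indicator (fun _ => δ) t :=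
        lintegral_add_right _ (measurable_const.indicator measurableSet_Ioo)
    _ = (∫⁻ t in Ioi (0 : ℝ), ν {a | t < (Ψ a).toReal}) + δ := by
        congr 1
        rw [setLIntegral_indicator measurableSet_Ioo]
        rw [inter_eq_self_of_subset_left Ioo_subset_Ioi_self]
        simp

/-- The sup of exponentials carried by closed sets. -/
noncomputable def sexp {V : Type*} (K : ℕ → Set V) (c : ℕ → ℝ) (s : ℝ) (ξ : V) : ℝ≥0∞ :=
  ⨆ i : ℕ, (K i).indicator (fun _ => ENNReal.ofReal (Real.exp (-(c i) / s))) ξ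

theorem measurable_sexp {V : Type*} [MeasurableSpace V] {K : ℕ → Set V}
    (hK : ∀ i, MeasurableSet (K i)) (c : ℕ → ℝ) (s : ℝ) : Measurable (sexp K c s) := by
  unfold sexp
  exact Measurable.iSup fun i => (measurable_const.indicator (hK i))

theorem sexp_le_one {V : Type*} {K : ℕ → Set V} {c : ℕ → ℝ} (hc : ∀ i, 0 ≤ c i) {s : ℝ}
    (hs : 0 < s) (ξ : V) : sexp K c s ξ ≤ 1 := by
  unfold sexp
  refine iSup_le fun i => ?_
  by_cases h : ξ ∈ K i
  · rw [indicator_of_mem h]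
    rw [show (1 : ℝ≥0∞) = ENNReal.ofReal 1 by simp]
    apply ENNReal.ofReal_le_ofReal
    rw [Real.exp_le_one_iff]
    have := hc i
    rw [neg_div]
    have : 0 ≤ c i / s := by positivity
    linarith
  · rw [indicator_of_notMem h]; exact zero_le

/-- enumeration of the nonnegative rationals -/
noncomputable def rat (i : ℕ) : ℝ := |((Encodable.decode (α := ℚ) i).getD 0 : ℚ)|

theorem rat_nonneg (i : ℕ) : 0 ≤ rat i := abs_nonneg _

theorem exists_rat {a b : ℝ} (ha : 0 ≤ a) (hab : a < b) : ∃ i, a < rat i ∧ rat i < b := by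
  obtain ⟨q, hq1, hq2⟩ := exists_rat_btwn hab
  refine ⟨Encodable.encode q, ?_⟩
  have h : rat (Encodable.encode q) = (q : ℝ) := by
    unfold rat
    rw [Encodable.encodek]
    simp only [Option.getD_some]
    rw [abs_of_nonneg]
    exact le_trans ha hq1.le
  rw [h]
  exact ⟨hq1, hq2⟩

variable {X : Type*} [MeasurableSpace X] {m : Measure X} {S : Set X} {n : ℕ}

/-- the closed sets carrying the sublevels -/
def Kc (S : Set X) (a : X → ℝ) (p : X → EuclideanSpace ℝ (Fin n)) (i : ℕ) :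
    Set (EuclideanSpace ℝ (Fin n)) :=
  closure (p '' {w | w ∈ S ∧ a w ≤ rat i})

/-- Step (V): lower bound of the integral of the sup of exponentials. -/
theorem sexp_lower (hS : MeasurableSet S) {a : X → ℝ} (ha : Measurable a)
    (ha0 : ∀ w ∈ S, 0 ≤ a w) (p : X → EuclideanSpace ℝ (Fin n)) {c δ : ℝ≥0∞} (hc : c ≠ ∞)
    (hJ : ∀ E ⊆ S, MeasurableSet E → c * m E ≤ volume (closure (p '' E)) + δ)
    {s : ℝ} (hs : 0 < s) :
    c * ∫⁻ w in S, ENNReal.ofReal (Real.exp (-(a w) / s)) ∂m ≤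
      (∫⁻ ξ, sexp (Kc S a p) rat s ξ) + δ := by
  have hKm : ∀ i, MeasurableSet (Kc S a p i) := fun i => isClosed_closure.measurableSet
  have hφm : Measurable fun w : X => Real.exp (-(a w) / s) := by fun_prop
  refine layer_le hφm (fun _ => (Real.exp_pos _).le) ?_ (measurable_sexp hKm _ _)
    (fun ξ => sexp_le_one rat_nonneg hs ξ) hc ?_
  · intro x hx
    rw [Real.exp_le_one_iff, neg_div]
    have : 0 ≤ a x / s := div_nonneg (ha0 x hx) hs.le
    linarith
  intro t ht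
  set lam := -s * Real.log t with hlam
  have key : ∀ x : ℝ, t < Real.exp (-x / s) ↔ x < lam := by
    intro x
    rw [← Real.log_lt_iff_lt_exp ht, hlam, lt_div_iff₀ hs]
    constructor <;> intro h <;> linarith [mul_comm s (Real.log t)]
  have hset : {x | t < Real.exp (-(a x) / s)} = {x | a x < lam} := by
    ext x
    exact key (a x)
  have hms : MeasurableSet {x | a x < lam} := measurableSet_lt ha measurable_const
  have hres : (m.restrict S) {x | t < Real.exp (-(a x) / s)} = m ({x | a x < lam} ∩ S) := by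
    rw [hset, Measure.restrict_apply hms]
  rw [hres]
  -- the union of the rational sublevels
  have hU : {x | a x < lam} ∩ S = ⋃ i ∈ {i : ℕ | rat i < lam}, {w | w ∈ S ∧ a w ≤ rat i} := by
    ext w
    simp only [mem_inter_iff, mem_ofPred_eq, mem_iUnion, exists_prop]
    constructor
    · rintro ⟨h1, h2⟩
      obtain ⟨i, hi1, hi2⟩ := exists_rat (ha0 w h2) h1
      exact ⟨i, hi2, h2, hi1.le⟩
    · rintro ⟨i, hi, h2, h3⟩
      exact ⟨lt_of_le_of_lt h3 hi, h2⟩
  have hdir : DirectedOn (fun i j => {w | w ∈ S ∧ a w ≤ rat i} ⊆ {w | w ∈ S ∧ a w ≤ rat j})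
      {i : ℕ | rat i < lam} := by
    intro i hi j hj
    rcases le_total (rat i) (rat j) with h | h
    · exact ⟨j, hj, fun w hw => ⟨hw.1, hw.2.trans h⟩, subset_rfl⟩
    · exact ⟨i, hi, subset_rfl, fun w hw => ⟨hw.1, hw.2.trans h⟩⟩
  rw [hU, measure_biUnion_eq_iSup (to_countable _) hdir, ENNReal.mul_iSup]
  refine iSup_le fun i => ?_
  rw [ENNReal.mul_iSup]
  refine iSup_le fun hi => ?_
  have hE : MeasurableSet {w | w ∈ S ∧ a w ≤ rat i} :=
    hS.inter (measurableSet_le ha measurable_const)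
  refine (hJ _ (fun w hw => hw.1) hE).trans (add_le_add (measure_mono ?_) le_rfl)
  intro ξ hξ
  have hξ' : ξ ∈ Kc S a p i := hξ
  simp only [mem_ofPred_eq]
  have h1 : ENNReal.ofReal t < ENNReal.ofReal (Real.exp (-(rat i) / s)) := by
    rw [ENNReal.ofReal_lt_ofReal_iff (Real.exp_pos _)]
    exact (key _).2 hi
  refine lt_of_lt_of_le h1 ?_
  unfold sexp
  refine le_trans ?_ (le_iSup _ i)
  rw [indicator_of_mem hξ']

omit [MeasurableSpace X] in
/-- crude upper bound of the integral of the sup of exponentials. -/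
theorem sexp_upper {a : X → ℝ} (p : X → EuclideanSpace ℝ (Fin n)) {s : ℝ} (hs : 0 < s) :
    ∫⁻ ξ, sexp (Kc S a p) rat s ξ ≤ volume (closure (p '' S)) := by
  calc ∫⁻ ξ, sexp (Kc S a p) rat s ξ ≤ ∫⁻ ξ, (closure (p '' S)).indicator 1 ξ := by
        refine lintegral_mono fun ξ => ?_
        by_cases h : ξ ∈ closure (p '' S)
        · rw [indicator_of_mem h]
          exact sexp_le_one rat_nonneg hs ξ
        · rw [indicator_of_notMem h]
          unfold sexp
          refine iSup_le fun i => ?_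
          have h2 : ξ ∉ Kc S a p i := fun h3 =>
            h (closure_mono (image_mono fun w hw => hw.1) h3)
          rw [indicator_of_notMem h2]
    _ = volume (closure (p '' S)) := by
        rw [lintegral_indicator_one isClosed_closure.measurableSet]

omit [MeasurableSpace X] in
/-- pass (II) to the closures -/
theorem II_closure {a b : X → ℝ} {p q : X → EuclideanSpace ℝ (Fin n)} {eps : ℝ}
    (hII : ∀ w ∈ S, ∀ w' ∈ S, ‖p w + q w'‖ ^ 2 / 2 ≤ a w + b w' + eps) {i j : ℕ}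
    {ξ η : EuclideanSpace ℝ (Fin n)} (hξ : ξ ∈ Kc S a p i) (hη : η ∈ Kc S b q j) :
    ‖ξ + η‖ ^ 2 / 2 ≤ rat i + rat j + eps := by
  have h1 : ∀ w' ∈ {w | w ∈ S ∧ b w ≤ rat j}, ‖ξ + q w'‖ ^ 2 / 2 ≤ rat i + rat j + eps := by
    intro w' hw'
    have hcl : IsClosed {ξ : EuclideanSpace ℝ (Fin n) |
        ‖ξ + q w'‖ ^ 2 / 2 ≤ rat i + rat j + eps} :=
      isClosed_le (by fun_prop) continuous_const
    have hsub : closure (p '' {w | w ∈ S ∧ a w ≤ rat i}) ⊆
        {ξ : EuclideanSpace ℝ (Fin n) | ‖ξ + q w'‖ ^ 2 / 2 ≤ rat i + rat j + eps} := by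
      apply closure_minimal _ hcl
      rintro _ ⟨w, hw, rfl⟩
      simp only [mem_ofPred_eq]
      have := hII w hw.1 w' hw'.1
      have h2 := hw.2
      have h3 := hw'.2
      linarith
    exact hsub hξ
  have hcl : IsClosed {η : EuclideanSpace ℝ (Fin n) |
      ‖ξ + η‖ ^ 2 / 2 ≤ rat i + rat j + eps} :=
    isClosed_le (by fun_prop) continuous_const
  have hsub : closure (q '' {w | w ∈ S ∧ b w ≤ rat j}) ⊆
      {η : EuclideanSpace ℝ (Fin n) | ‖ξ + η‖ ^ 2 / 2 ≤ rat i + rat j + eps} := by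
    apply closure_minimal _ hcl
    rintro _ ⟨w, hw, rfl⟩
    exact h1 w hw
  exact hsub hη

omit [MeasurableSpace X] in
/-- product of two sups of exponentials -/
theorem sexp_mul_le {a b : X → ℝ} {p q : X → EuclideanSpace ℝ (Fin n)} {eps : ℝ}
    (hII : ∀ w ∈ S, ∀ w' ∈ S, ‖p w + q w'‖ ^ 2 / 2 ≤ a w + b w' + eps) {s t : ℝ}
    (hs : 0 < s) (ht : 0 < t) (ξ η : EuclideanSpace ℝ (Fin n)) :
    sexp (Kc S a p) rat s ξ ^ s * sexp (Kc S b q) rat t η ^ t ≤
      ENNReal.ofReal (Real.exp (eps - ‖ξ + η‖ ^ 2 / 2)) := by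
  unfold sexp
  have h1 := (ENNReal.orderIsoRpow s hs).map_iSup
    (fun i : ℕ => (Kc S a p i).indicator (fun _ => ENNReal.ofReal (Real.exp (-(rat i) / s))) ξ)
  have h2 := (ENNReal.orderIsoRpow t ht).map_iSup
    (fun i : ℕ => (Kc S b q i).indicator (fun _ => ENNReal.ofReal (Real.exp (-(rat i) / t))) η)
  simp only [ENNReal.orderIsoRpow_apply] at h1 h2
  rw [h1, h2, ENNReal.iSup_mul]
  refine iSup_le fun i => ?_
  rw [ENNReal.mul_iSup]
  refine iSup_le fun j => ?_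
  by_cases hi : ξ ∈ Kc S a p i
  · by_cases hj : η ∈ Kc S b q j
    · rw [indicator_of_mem hi, indicator_of_mem hj, ENNReal.ofReal_rpow_of_pos (Real.exp_pos _),
        ENNReal.ofReal_rpow_of_pos (Real.exp_pos _), ← ENNReal.ofReal_mul (by positivity)]
      apply ENNReal.ofReal_le_ofReal
      rw [← Real.exp_mul, ← Real.exp_mul, ← Real.exp_add]
      apply Real.exp_le_exp.2
      have h3 := II_closure hII hi hj
      rw [div_mul_cancel₀ _ hs.ne', div_mul_cancel₀ _ ht.ne']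
      linarith
    · rw [indicator_of_notMem hj, ENNReal.zero_rpow_of_pos ht, mul_zero]; exact zero_le
  · rw [indicator_of_notMem hi, ENNReal.zero_rpow_of_pos hs, zero_mul]; exact zero_le

/-- scaling of an integral -/
theorem lintegral_smul_eucl {s : ℝ} (hs : 0 < s) (F : EuclideanSpace ℝ (Fin n) → ℝ≥0∞)
    (hF : Measurable F) :
    ∫⁻ x, F (s • x) = ENNReal.ofReal ((s ^ n)⁻¹) * ∫⁻ x, F x := by
  have h := Measure.map_addHaar_smul (volume : Measure (EuclideanSpace ℝ (Fin n))) hs.ne'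
  have h2 : ∫⁻ x, F (s • x) = ∫⁻ x, F x ∂(Measure.map (s • ·) volume) := by
    rw [lintegral_map hF (measurable_const_smul s)]
  rw [h2, h, lintegral_smul_measure, finrank_euclideanSpace, Fintype.card_fin,
    abs_of_nonneg (by positivity), smul_eq_mul]

theorem gauss_lintegral (n : ℕ) :
    ∫⁻ x : EuclideanSpace ℝ (Fin n), ENNReal.ofReal (Real.exp (-(‖x‖ ^ 2 / 2))) =
      ENNReal.ofReal ((2 * Real.pi) ^ ((n : ℝ) / 2)) := by
  have h1 := GaussianFourier.integral_rexp_neg_mul_sq_norm (V := EuclideanSpace ℝ (Fin n))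
    (b := 1 / 2) (by norm_num)
  rw [finrank_euclideanSpace, Fintype.card_fin] at h1
  have h2 : (fun v : EuclideanSpace ℝ (Fin n) => Real.exp (-(1 / 2) * ‖v‖ ^ 2)) =
      fun x => Real.exp (-(‖x‖ ^ 2 / 2)) := by
    funext v; congr 1; ring
  rw [h2] at h1
  have hpos : 0 < (Real.pi / (1 / 2)) ^ ((n : ℝ) / 2) := by positivity
  have hint : Integrable (fun x : EuclideanSpace ℝ (Fin n) => Real.exp (-(‖x‖ ^ 2 / 2))) := by
    by_contra hne
    rw [integral_undef hne] at h1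
    linarith
  rw [← ofReal_integral_eq_lintegral_ofReal hint (Eventually.of_forall fun _ => (Real.exp_pos _).le),
    h1]
  congr 2
  ring

/-- CORE: the finite-scale blow-up inequality for the standard Gaussian, additive errors. -/
theorem core (hS : MeasurableSet S) {a b : X → ℝ} (ha : Measurable a) (hb : Measurable b)
    (ha0 : ∀ w ∈ S, 0 ≤ a w) (hb0 : ∀ w ∈ S, 0 ≤ b w)
    (p q : X → EuclideanSpace ℝ (Fin n)) {A B eps : ℝ} (hA : 0 < A) (hB : 0 < B) {δ vC : ℝ≥0∞}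
    (hJa : ∀ E ⊆ S, MeasurableSet E →
      ENNReal.ofReal (A ^ n) * m E ≤ volume (closure (p '' E)) + δ)
    (hJb : ∀ E ⊆ S, MeasurableSet E →
      ENNReal.ofReal (B ^ n) * m E ≤ volume (closure (q '' E)) + δ)
    (hp : volume (closure (p '' S)) ≤ vC) (hq : volume (closure (q '' S)) ≤ vC)
    (hII : ∀ w ∈ S, ∀ w' ∈ S, ‖p w + q w'‖ ^ 2 / 2 ≤ a w + b w' + eps) :
    ENNReal.ofReal ((A + B) ^ n) * ∫⁻ w in S, ENNReal.ofReal (Real.exp (-(a w + b w))) ∂m ≤
      ENNReal.ofReal (Real.exp eps * (2 * Real.pi) ^ ((n : ℝ) / 2)) +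
      ((ENNReal.ofReal (((A / (A + B)) ^ n)⁻¹) * vC) ^ (A / (A + B)) *
          (ENNReal.ofReal (((B / (A + B)) ^ n)⁻¹) * δ) ^ (B / (A + B)) +
        (ENNReal.ofReal (((A / (A + B)) ^ n)⁻¹) * δ) ^ (A / (A + B)) *
          ((ENNReal.ofReal (((B / (A + B)) ^ n)⁻¹) * vC) ^ (B / (A + B)) +
            (ENNReal.ofReal (((B / (A + B)) ^ n)⁻¹) * δ) ^ (B / (A + B)))) := by
  have hAB : 0 < A + B := by positivity
  set s := A / (A + B) with hs'
  set t := B / (A + B) with ht'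
  have hs : 0 < s := by positivity
  have ht : 0 < t := by positivity
  have hst : s + t = 1 := by rw [hs', ht']; field_simp
  set F := sexp (Kc S a p) rat s with hF
  set G := sexp (Kc S b q) rat t with hG
  have hFm : Measurable F := measurable_sexp (fun i => isClosed_closure.measurableSet) _ _
  have hGm : Measurable G := measurable_sexp (fun i => isClosed_closure.measurableSet) _ _
  -- Prekopa-Leindler
  have hPL := pl_eucl hs ht hst (fun x => F (s • x)) (fun x => G (t • x))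
    (fun z => ENNReal.ofReal (Real.exp (eps - ‖z‖ ^ 2 / 2)))
    (hFm.comp (measurable_const_smul s)) (hGm.comp (measurable_const_smul t)) (by fun_prop)
    (fun x y => sexp_mul_le hII hs ht (s • x) (t • y))
  rw [lintegral_smul_eucl hs F hFm, lintegral_smul_eucl ht G hGm] at hPL
  have hR : ∫⁻ z : EuclideanSpace ℝ (Fin n), ENNReal.ofReal (Real.exp (eps - ‖z‖ ^ 2 / 2)) =
      ENNReal.ofReal (Real.exp eps * (2 * Real.pi) ^ ((n : ℝ) / 2)) := by
    rw [ENNReal.ofReal_mul (Real.exp_pos _).le, ← gauss_lintegral n,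
      ← lintegral_const_mul' _ _ ENNReal.ofReal_ne_top]
    refine lintegral_congr fun z => ?_
    rw [← ENNReal.ofReal_mul (Real.exp_pos _).le, ← Real.exp_add]
    congr 2
  rw [hR] at hPL
  set cs := ENNReal.ofReal ((s ^ n)⁻¹) with hcs
  set ct := ENNReal.ofReal ((t ^ n)⁻¹) with hct
  -- lower bounds
  have hLa := sexp_lower hS ha ha0 p ENNReal.ofReal_ne_top hJa hs
  have hLb := sexp_lower hS hb hb0 q ENNReal.ofReal_ne_top hJb ht
  have hUa : ∫⁻ x, F x ≤ vC := (sexp_upper (a := a) p hs).trans hp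
  have hUb : ∫⁻ x, G x ≤ vC := (sexp_upper (a := b) q ht).trans hq
  set Xa := ∫⁻ w in S, ENNReal.ofReal (Real.exp (-(a w) / s)) ∂m with hXa
  set Xb := ∫⁻ w in S, ENNReal.ofReal (Real.exp (-(b w) / t)) ∂m with hXb
  have hHol : ∫⁻ w in S, ENNReal.ofReal (Real.exp (-(a w + b w))) ∂m ≤ Xa ^ s * Xb ^ t := by
    have h := ENNReal.lintegral_mul_norm_pow_le (μ := m.restrict S)
      (f := fun w => ENNReal.ofReal (Real.exp (-(a w) / s)))
      (g := fun w => ENNReal.ofReal (Real.exp (-(b w) / t)))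
      (by fun_prop) (by fun_prop) hs.le ht.le hst
    refine le_trans (le_of_eq ?_) h
    refine lintegral_congr fun w => ?_
    rw [ENNReal.ofReal_rpow_of_pos (Real.exp_pos _), ENNReal.ofReal_rpow_of_pos (Real.exp_pos _),
      ← ENNReal.ofReal_mul (by positivity), ← Real.exp_mul, ← Real.exp_mul, ← Real.exp_add,
      div_mul_cancel₀ _ hs.ne', div_mul_cancel₀ _ ht.ne']
    congr 2
    ring
  have h1 : cs * (ENNReal.ofReal (A ^ n) * Xa) = ENNReal.ofReal ((A + B) ^ n) * Xa := by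
    rw [← mul_assoc, hcs, ← ENNReal.ofReal_mul (by positivity)]
    congr 2
    rw [hs', div_pow]
    field_simp
  have h2 : ct * (ENNReal.ofReal (B ^ n) * Xb) = ENNReal.ofReal ((A + B) ^ n) * Xb := by
    rw [← mul_assoc, hct, ← ENNReal.ofReal_mul (by positivity)]
    congr 2
    rw [ht', div_pow]
    field_simp
  have h3 : ENNReal.ofReal ((A + B) ^ n) * Xa ≤ cs * (∫⁻ x, F x) + cs * δ := by
    rw [← h1, ← mul_add]; exact mul_le_mul' le_rfl hLa
  have h4 : ENNReal.ofReal ((A + B) ^ n) * Xb ≤ ct * (∫⁻ x, G x) + ct * δ := by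
    rw [← h2, ← mul_add]; exact mul_le_mul' le_rfl hLb
  have hs1 : s ≤ 1 := by linarith
  have ht1 : t ≤ 1 := by linarith
  calc ENNReal.ofReal ((A + B) ^ n) * ∫⁻ w in S, ENNReal.ofReal (Real.exp (-(a w + b w))) ∂m
      ≤ ENNReal.ofReal ((A + B) ^ n) * (Xa ^ s * Xb ^ t) := mul_le_mul' le_rfl hHol
    _ = (ENNReal.ofReal ((A + B) ^ n) * Xa) ^ s * (ENNReal.ofReal ((A + B) ^ n) * Xb) ^ t := by
        rw [ENNReal.mul_rpow_of_nonneg _ _ hs.le, ENNReal.mul_rpow_of_nonneg _ _ ht.le]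
        have h5 : ENNReal.ofReal ((A + B) ^ n) =
            ENNReal.ofReal ((A + B) ^ n) ^ s * ENNReal.ofReal ((A + B) ^ n) ^ t := by
          rw [← ENNReal.rpow_add_of_nonneg _ _ hs.le ht.le, hst, ENNReal.rpow_one]
        nth_rewrite 1 [h5]
        ring
    _ ≤ (cs * (∫⁻ x, F x) + cs * δ) ^ s * (ct * (∫⁻ x, G x) + ct * δ) ^ t :=
        mul_le_mul' (ENNReal.rpow_le_rpow h3 hs.le) (ENNReal.rpow_le_rpow h4 ht.le)
    _ ≤ ((cs * ∫⁻ x, F x) ^ s + (cs * δ) ^ s) * ((ct * ∫⁻ x, G x) ^ t + (ct * δ) ^ t) :=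
        mul_le_mul' (ENNReal.rpow_add_le_add_rpow _ _ hs.le hs1)
          (ENNReal.rpow_add_le_add_rpow _ _ ht.le ht1)
    _ = (cs * ∫⁻ x, F x) ^ s * (ct * ∫⁻ x, G x) ^ t +
        ((cs * ∫⁻ x, F x) ^ s * (ct * δ) ^ t + (cs * δ) ^ s *
          ((ct * ∫⁻ x, G x) ^ t + (ct * δ) ^ t)) := by ring
    _ ≤ _ := by
        gcongr

/-- Volume step: lower bound for the Gaussian-type integral over `S`. -/
theorem vol_lower (hS : MeasurableSet S) {g : X → ℝ} (hg : Measurable g)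
    (L : X → EuclideanSpace ℝ (Fin n)) (Q : EuclideanSpace ℝ (Fin n) → ℝ) (hQ : Continuous Q)
    (hQ0 : ∀ v, 0 ≤ Q v) {R eps : ℝ} {δ : ℝ≥0∞}
    (hL1 : ∀ w ∈ S, ‖L w‖ ≤ R)
    (hL2 : volume (closedBall (0 : EuclideanSpace ℝ (Fin n)) R) ≤ m S + δ)
    (hL3 : ∀ E ⊆ S, MeasurableSet E → m E ≤ volume (closure (L '' E)) + δ)
    (hI : ∀ w ∈ S, g w ≤ Q (L w) + eps) :
    ∫⁻ v in closedBall (0 : EuclideanSpace ℝ (Fin n)) R, ENNReal.ofReal (Real.exp (-(Q v))) ≤
      ENNReal.ofReal (Real.exp eps) * ∫⁻ w in S, ENNReal.ofReal (Real.exp (-(g w))) ∂m +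
        2 * δ := by
  set Bl := closedBall (0 : EuclideanSpace ℝ (Fin n)) R with hBl
  have hBf : volume Bl ≠ ∞ := measure_closedBall_lt_top.ne
  have hBm : MeasurableSet Bl := isClosed_closedBall.measurableSet
  have hQm : Measurable Q := hQ.measurable
  -- layer cake on both sides, levels in (0,1)
  have hl : ∫⁻ v in Bl, ENNReal.ofReal (Real.exp (-(Q v))) =
      ∫⁻ u in Ioo (0 : ℝ) 1, volume (Bl ∩ {v | u < Real.exp (-(Q v))}) := by
    rw [lintegral_eq_lintegral_meas_lt _ (Eventually.of_forall fun _ => (Real.exp_pos _).le)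
      (by fun_prop)]
    have h1 : ∀ u, (volume.restrict Bl) {v | u < Real.exp (-(Q v))} =
        volume (Bl ∩ {v | u < Real.exp (-(Q v))}) := by
      intro u
      rw [Measure.restrict_apply (measurableSet_lt measurable_const (by fun_prop)), inter_comm]
    simp_rw [h1]
    have h2 : ∫⁻ u in Ioi (0 : ℝ), volume (Bl ∩ {v | u < Real.exp (-(Q v))}) =
        ∫⁻ u in Ioi (0 : ℝ), (Iio (1 : ℝ)).indicator
          (fun u => volume (Bl ∩ {v | u < Real.exp (-(Q v))})) u := by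
      refine setLIntegral_congr_fun measurableSet_Ioi fun u hu => ?_
      by_cases h : u < 1
      · simp only [indicator_of_mem (show u ∈ Iio (1 : ℝ) from h)]
      · simp only [indicator_of_notMem (show u ∉ Iio (1 : ℝ) from h)]
        have : Bl ∩ {v | u < Real.exp (-(Q v))} = ∅ := by
          apply eq_empty_of_forall_notMem
          rintro v ⟨-, hv⟩
          simp only [mem_ofPred_eq] at hv
          have h3 : Real.exp (-(Q v)) ≤ 1 := by
            rw [Real.exp_le_one_iff]; linarith [hQ0 v]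
          linarith
        rw [this, measure_empty]
    rw [h2, setLIntegral_indicator measurableSet_Iio]
    congr 2
    ext u
    simp [and_comm]
  have hr : ∫⁻ u in Ioo (0 : ℝ) 1, m (S ∩ {w | u < Real.exp (-(g w - eps))}) ≤
      ENNReal.ofReal (Real.exp eps) * ∫⁻ w in S, ENNReal.ofReal (Real.exp (-(g w))) ∂m := by
    have h1 : ENNReal.ofReal (Real.exp eps) * ∫⁻ w in S, ENNReal.ofReal (Real.exp (-(g w))) ∂m =
        ∫⁻ w in S, ENNReal.ofReal (Real.exp (-(g w - eps))) ∂m := by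
      rw [← lintegral_const_mul' _ _ ENNReal.ofReal_ne_top]
      refine lintegral_congr fun w => ?_
      rw [← ENNReal.ofReal_mul (Real.exp_pos _).le, ← Real.exp_add]
      congr 2
      ring
    rw [h1, lintegral_eq_lintegral_meas_lt _ (Eventually.of_forall fun _ => (Real.exp_pos _).le)
      (by fun_prop)]
    have h2 : ∀ u, (m.restrict S) {w | u < Real.exp (-(g w - eps))} =
        m (S ∩ {w | u < Real.exp (-(g w - eps))}) := by
      intro u
      rw [Measure.restrict_apply (measurableSet_lt measurable_const (by fun_prop)), inter_comm]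
    simp_rw [h2]
    exact lintegral_mono_set Ioo_subset_Ioi_self
  rw [hl]
  -- pointwise in u
  have hpt : ∀ u ∈ Ioo (0 : ℝ) 1, volume (Bl ∩ {v | u < Real.exp (-(Q v))}) ≤
      m (S ∩ {w | u < Real.exp (-(g w - eps))}) + 2 * δ := by
    intro u hu
    set D := {v : EuclideanSpace ℝ (Fin n) | u < Real.exp (-(Q v))} with hD
    have hDo : IsOpen D := isOpen_lt continuous_const (by fun_prop)
    set W := {w : X | u < Real.exp (-(g w - eps))} with hW
    have hWm : MeasurableSet W := measurableSet_lt measurable_const (by fun_prop)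
    have e1 : volume Bl = volume (Bl ∩ D) + volume (Bl \ D) :=
      (measure_inter_add_sdiff Bl hDo.measurableSet).symm
    have e2 : m S = m (S ∩ W) + m (S \ W) := (measure_inter_add_sdiff S hWm).symm
    have e3 : m (S \ W) ≤ volume (Bl \ D) + δ := by
      refine (hL3 _ sdiff_subset (hS.diff hWm)).trans (add_le_add (measure_mono ?_) le_rfl)
      have hcl : IsClosed (Bl \ D) := isClosed_closedBall.sdiff hDo
      apply closure_minimal _ hcl
      rintro _ ⟨w, ⟨hwS, hwW⟩, rfl⟩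
      refine ⟨by simpa [hBl] using hL1 w hwS, fun hLD => hwW ?_⟩
      simp only [hD, mem_ofPred_eq] at hLD
      simp only [hW, mem_ofPred_eq]
      refine lt_of_lt_of_le hLD (Real.exp_le_exp.2 ?_)
      have := hI w hwS
      linarith
    have hfin : volume (Bl \ D) ≠ ∞ := ne_top_of_le_ne_top hBf (measure_mono sdiff_subset)
    have e4 : volume (Bl ∩ D) + volume (Bl \ D) ≤
        (m (S ∩ W) + 2 * δ) + volume (Bl \ D) := by
      calc volume (Bl ∩ D) + volume (Bl \ D) = volume Bl := e1.symm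
        _ ≤ m S + δ := hL2
        _ = m (S ∩ W) + m (S \ W) + δ := by rw [e2]
        _ ≤ m (S ∩ W) + (volume (Bl \ D) + δ) + δ := by gcongr
        _ = _ := by ring
    exact (ENNReal.add_le_add_iff_right hfin).1 e4
  calc ∫⁻ u in Ioo (0 : ℝ) 1, volume (Bl ∩ {v | u < Real.exp (-(Q v))})
      ≤ ∫⁻ u in Ioo (0 : ℝ) 1, (m (S ∩ {w | u < Real.exp (-(g w - eps))}) + 2 * δ) :=
        setLIntegral_mono' measurableSet_Ioo hpt
    _ = (∫⁻ u in Ioo (0 : ℝ) 1, m (S ∩ {w | u < Real.exp (-(g w - eps))})) + 2 * δ := by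
        rw [lintegral_add_right _ measurable_const]
        simp
    _ ≤ _ := add_le_add hr le_rfl

theorem tendsto_err (A B : ℝ) (hA : 0 < A) (hB : 0 < B) (cs ct vC : ℝ≥0∞) (hcs : cs ≠ ∞)
    (hct : ct ≠ ∞) (hvC : vC ≠ ∞) :
    Tendsto (fun δ : ℝ≥0∞ => (cs * vC) ^ A * (ct * δ) ^ B +
      (cs * δ) ^ A * ((ct * vC) ^ B + (ct * δ) ^ B)) (𝓝 0) (𝓝 0) := by
  have h1 : ∀ (c : ℝ≥0∞) (_ : c ≠ ∞) (r : ℝ) (_ : 0 < r),
      Tendsto (fun δ : ℝ≥0∞ => (c * δ) ^ r) (𝓝 0) (𝓝 0) := by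
    intro c hc r hr
    have h2 : Tendsto (fun δ : ℝ≥0∞ => c * δ) (𝓝 0) (𝓝 (c * 0)) :=
      ENNReal.Tendsto.const_mul tendsto_id (Or.inr hc)
    have h3 := ((ENNReal.continuous_rpow_const (y := r)).tendsto (c * 0)).comp h2
    simpa [hr, Function.comp_def] using h3
  have h4 : (cs * vC) ^ A ≠ ∞ := ENNReal.rpow_ne_top_of_nonneg hA.le (ENNReal.mul_ne_top hcs hvC)
  have h5 : (ct * vC) ^ B ≠ ∞ := ENNReal.rpow_ne_top_of_nonneg hB.le (ENNReal.mul_ne_top hct hvC)
  have h6 : Tendsto (fun δ : ℝ≥0∞ => (cs * vC) ^ A * (ct * δ) ^ B) (𝓝 0) (𝓝 ((cs * vC) ^ A * 0)) :=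
    ENNReal.Tendsto.const_mul (h1 ct hct B hB) (Or.inr h4)
  have h7 : Tendsto (fun δ : ℝ≥0∞ => (ct * vC) ^ B + (ct * δ) ^ B) (𝓝 0)
      (𝓝 ((ct * vC) ^ B + 0)) := tendsto_const_nhds.add (h1 ct hct B hB)
  have h8 : Tendsto (fun δ : ℝ≥0∞ => (cs * δ) ^ A * ((ct * vC) ^ B + (ct * δ) ^ B)) (𝓝 0)
      (𝓝 (0 * ((ct * vC) ^ B + 0))) :=
    ENNReal.Tendsto.mul (h1 cs hcs A hA) (Or.inr (by simpa using h5)) h7
      (Or.inr ENNReal.zero_ne_top)
  have h9 := h6.add h8
  simpa using h9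

/-- Rescaled data at one scale `r`: lengths divided by `r`, `a`, `b` by `r ^ 2`, the measure
by `r ^ n`. `L`, `p`, `q` are arbitrary maps, all errors are additive. -/
structure Data {X : Type*} [MeasurableSpace X] (n : ℕ)
    (Q Q' : EuclideanSpace ℝ (Fin n) → ℝ) (A B R del : ℝ) (m : Measure X) (S : Set X)
    (a b : X → ℝ) (L p q : X → EuclideanSpace ℝ (Fin n)) : Prop where
  mS : MeasurableSet S
  ma : ∀ c : ℝ, MeasurableSet {w | w ∈ S ∧ a w ≤ c}
  mb : ∀ c : ℝ, MeasurableSet {w | w ∈ S ∧ b w ≤ c}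
  a0 : ∀ w ∈ S, 0 ≤ a w
  b0 : ∀ w ∈ S, 0 ≤ b w
  L1 : ∀ w ∈ S, ‖L w‖ ≤ R
  L2 : volume (closedBall (0 : EuclideanSpace ℝ (Fin n)) R) ≤ m S + ENNReal.ofReal del
  L3 : ∀ E ⊆ S, MeasurableSet E → m E ≤ volume (closure (L '' E)) + ENNReal.ofReal del
  Ja : ∀ E ⊆ S, MeasurableSet E →
    ENNReal.ofReal (A ^ n) * m E ≤ volume (closure (p '' E)) + ENNReal.ofReal del
  Jb : ∀ E ⊆ S, MeasurableSet E →
    ENNReal.ofReal (B ^ n) * m E ≤ volume (closure (q '' E)) + ENNReal.ofReal del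
  II : ∀ w ∈ S, ∀ w' ∈ S, Q' (p w + q w') / 2 ≤ a w + b w' + del
  I : ∀ w ∈ S, a w + b w ≤ Q (L w) / 2 + del
  Z : ∃ z ∈ S, a z = 0 ∧ b z = 0

theorem meas_ind {X : Type*} [MeasurableSpace X] {S : Set X} (mS : MeasurableSet S) {a : X → ℝ}
    (ma : ∀ c : ℝ, MeasurableSet {w | w ∈ S ∧ a w ≤ c}) : Measurable (S.indicator a) := by
  refine measurable_of_Iic fun c => ?_
  have h : (S.indicator a) ⁻¹' Iic c = {w | w ∈ S ∧ a w ≤ c} ∪ (Sᶜ ∩ {_w | 0 ≤ c}) := by
    ext w
    by_cases h : w ∈ S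
    · simp [h]
    · simp [h]
  rw [h]
  exact (ma c).union (mS.compl.inter (MeasurableSet.const _))

/-- finite-scale inequality, everything explicit -/
theorem scale {X : Type*} [MeasurableSpace X] {n : ℕ}
    {Q Q' : EuclideanSpace ℝ (Fin n) → ℝ} {A B R del : ℝ} {m : Measure X} {S : Set X}
    {a b : X → ℝ} {L p q : X → EuclideanSpace ℝ (Fin n)} (h : Data n Q Q' A B R del m S a b L p q)
    (T : EuclideanSpace ℝ (Fin n) ≃L[ℝ] EuclideanSpace ℝ (Fin n)) (hQ : ∀ v, Q v = ‖T v‖ ^ 2)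
    (hQ' : ∀ v, Q' v = ‖T.symm v‖ ^ 2) (hA : 0 < A) (hB : 0 < B) (hR : 0 < R)
    (hdel1 : del ≤ 1) {r : ℝ} (hr0 : 0 < r)
    (hrn : r ^ n =
      |LinearMap.det (T : EuclideanSpace ℝ (Fin n) →ₗ[ℝ] EuclideanSpace ℝ (Fin n))|⁻¹) :
    ENNReal.ofReal ((A * r + B * r) ^ n) *
      ∫⁻ v in closedBall (0 : EuclideanSpace ℝ (Fin n)) R,
        ENNReal.ofReal (Real.exp (-(‖T v‖ ^ 2 / 2))) ≤
    ENNReal.ofReal (Real.exp del) *
      (ENNReal.ofReal (Real.exp del * (2 * Real.pi) ^ ((n : ℝ) / 2)) +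
      ((ENNReal.ofReal (((A * r / (A * r + B * r)) ^ n)⁻¹) * volume (closedBall
          (0 : EuclideanSpace ℝ (Fin n)) (‖(T : EuclideanSpace ℝ (Fin n) →L[ℝ]
            EuclideanSpace ℝ (Fin n))‖ * R * 2 + 3))) ^ (A * r / (A * r + B * r)) *
          (ENNReal.ofReal (((B * r / (A * r + B * r)) ^ n)⁻¹) *
            (ENNReal.ofReal (r ^ n) * ENNReal.ofReal del)) ^ (B * r / (A * r + B * r)) +
        (ENNReal.ofReal (((A * r / (A * r + B * r)) ^ n)⁻¹) *
          (ENNReal.ofReal (r ^ n) * ENNReal.ofReal del)) ^ (A * r / (A * r + B * r)) *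
          ((ENNReal.ofReal (((B * r / (A * r + B * r)) ^ n)⁻¹) * volume (closedBall
            (0 : EuclideanSpace ℝ (Fin n)) (‖(T : EuclideanSpace ℝ (Fin n) →L[ℝ]
              EuclideanSpace ℝ (Fin n))‖ * R * 2 + 3))) ^ (B * r / (A * r + B * r)) +
            (ENNReal.ofReal (((B * r / (A * r + B * r)) ^ n)⁻¹) *
              (ENNReal.ofReal (r ^ n) * ENNReal.ofReal del)) ^ (B * r / (A * r + B * r))))) +
      ENNReal.ofReal ((A * r + B * r) ^ n) * (2 * ENNReal.ofReal del) := by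
  set d := |LinearMap.det (T : EuclideanSpace ℝ (Fin n) →ₗ[ℝ] EuclideanSpace ℝ (Fin n))| with hd
  have hvol : ∀ Z : Set (EuclideanSpace ℝ (Fin n)),
      volume (closure (T.symm '' Z)) = ENNReal.ofReal (r ^ n) * volume (closure Z) := by
    intro Z
    have h1 : closure (T.symm '' Z) = T.symm '' closure Z :=
      (T.symm.toHomeomorph.image_closure Z).symm
    rw [h1, Measure.addHaar_image_continuousLinearEquiv, hrn]
    congr 2
    have h2 : LinearMap.det (T.symm : EuclideanSpace ℝ (Fin n) →ₗ[ℝ] EuclideanSpace ℝ (Fin n)) =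
        (LinearMap.det (T : EuclideanSpace ℝ (Fin n) →ₗ[ℝ] EuclideanSpace ℝ (Fin n)))⁻¹ := by
      have h3 := T.toLinearEquiv.det_symm_mul_det
      exact eq_inv_of_mul_eq_one_left h3
    rw [h2, abs_inv]
  have hscale : ∀ (C : ℝ) (_ : 0 < C) (u : X → EuclideanSpace ℝ (Fin n)),
      (∀ E ⊆ S, MeasurableSet E → ENNReal.ofReal (C ^ n) * m E ≤
        volume (closure (u '' E)) + ENNReal.ofReal del) →
      ∀ E ⊆ S, MeasurableSet E → ENNReal.ofReal ((C * r) ^ n) * m E ≤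
        volume (closure ((fun w => T.symm (u w)) '' E)) +
          ENNReal.ofReal (r ^ n) * ENNReal.ofReal del := by
    intro C hC u hu E hE hEm
    have h1 : (fun w => T.symm (u w)) '' E = T.symm '' (u '' E) := by
      rw [image_image]
    rw [h1, hvol, mul_pow, mul_comm (C ^ n), ENNReal.ofReal_mul (by positivity), mul_assoc,
      ← mul_add]
    exact mul_le_mul' le_rfl (hu E hE hEm)
  -- measurable versions of a, b
  set a' := S.indicator a with ha'
  set b' := S.indicator b with hb'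
  have hma : Measurable a' := meas_ind h.mS h.ma
  have hmb : Measurable b' := meas_ind h.mS h.mb
  have haa : ∀ w ∈ S, a' w = a w := fun w hw => indicator_of_mem hw a
  have hbb : ∀ w ∈ S, b' w = b w := fun w hw => indicator_of_mem hw b
  have hII' : ∀ w ∈ S, ∀ w' ∈ S, ‖T.symm (p w) + T.symm (q w')‖ ^ 2 / 2 ≤
      a' w + b' w' + del := by
    intro w hw w' hw'
    have h1 := h.II w hw w' hw'
    rw [hQ', map_add] at h1
    rw [haa w hw, hbb w' hw']
    exact h1
  have hI' : ∀ w ∈ S, a' w + b' w ≤ ‖T (L w)‖ ^ 2 / 2 + del := by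
    intro w hw
    have h1 := h.I w hw
    rw [hQ] at h1
    rw [haa w hw, hbb w hw]
    exact h1
  set NT := ‖(T : EuclideanSpace ℝ (Fin n) →L[ℝ] EuclideanSpace ℝ (Fin n))‖ with hNT
  have hNT0 : 0 ≤ NT := norm_nonneg _
  have hbd : ∀ w ∈ S, ∀ w' ∈ S, ‖T.symm (p w) + T.symm (q w')‖ ≤ NT * R * 2 + 3 := by
    intro w hw w' hw'
    have h1 := hII' w hw w' hw'
    have hTL : ∀ w ∈ S, ‖T (L w)‖ ≤ NT * R := by
      intro w hw
      calc ‖T (L w)‖ ≤ NT * ‖L w‖ :=
            (T : EuclideanSpace ℝ (Fin n) →L[ℝ] EuclideanSpace ℝ (Fin n)).le_opNorm (L w)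
        _ ≤ NT * R := mul_le_mul_of_nonneg_left (h.L1 w hw) hNT0
    have h2 : ∀ w ∈ S, a' w + b' w ≤ (NT * R) ^ 2 / 2 + 1 := by
      intro w hw
      have h3 := hI' w hw
      have h4 : ‖T (L w)‖ ^ 2 ≤ (NT * R) ^ 2 := by
        have := hTL w hw
        gcongr
      linarith
    have h5 := h2 w hw
    have h6 := h2 w' hw'
    have h7 : 0 ≤ b' w := by rw [hbb w hw]; exact h.b0 w hw
    have h8 : 0 ≤ a' w' := by rw [haa w' hw']; exact h.a0 w' hw'
    have h9 : ‖T.symm (p w) + T.symm (q w')‖ ^ 2 ≤ (NT * R * 2 + 3) ^ 2 := by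
      have : 0 ≤ NT * R := by positivity
      nlinarith
    exact le_of_sq_le_sq h9 (by positivity)
  have hvp : volume (closure ((fun w => T.symm (p w)) '' S)) ≤
      volume (closedBall (0 : EuclideanSpace ℝ (Fin n)) (NT * R * 2 + 3)) := by
    obtain ⟨z, hz, -⟩ := h.Z
    rw [← Measure.addHaar_closedBall_center volume (-(T.symm (q z)))]
    refine measure_mono (closure_minimal ?_ isClosed_closedBall)
    rintro _ ⟨w, hw, rfl⟩
    rw [mem_closedBall, dist_eq_norm, sub_neg_eq_add]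
    exact hbd w hw z hz
  have hvq : volume (closure ((fun w => T.symm (q w)) '' S)) ≤
      volume (closedBall (0 : EuclideanSpace ℝ (Fin n)) (NT * R * 2 + 3)) := by
    obtain ⟨z, hz, -⟩ := h.Z
    rw [← Measure.addHaar_closedBall_center volume (-(T.symm (p z)))]
    refine measure_mono (closure_minimal ?_ isClosed_closedBall)
    rintro _ ⟨w, hw, rfl⟩
    rw [mem_closedBall, dist_eq_norm, sub_neg_eq_add, add_comm]
    exact hbd z hz w hw
  have hcore := core h.mS hma hmb (fun w hw => by rw [haa w hw]; exact h.a0 w hw)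
    (fun w hw => by rw [hbb w hw]; exact h.b0 w hw) (fun w => T.symm (p w))
    (fun w => T.symm (q w)) (mul_pos hA hr0) (mul_pos hB hr0) (hscale A hA p h.Ja)
    (hscale B hB q h.Jb) hvp hvq hII'
  have hvl := vol_lower h.mS (g := fun w => a' w + b' w) (by fun_prop) L
    (fun v => ‖T v‖ ^ 2 / 2) (by fun_prop) (fun v => by positivity) h.L1 h.L2 h.L3 hI'
  set I := ∫⁻ w in S, ENNReal.ofReal (Real.exp (-(a' w + b' w))) ∂m with hIdef
  calc _ ≤ ENNReal.ofReal ((A * r + B * r) ^ n) * (ENNReal.ofReal (Real.exp del) * I +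
        2 * ENNReal.ofReal del) := mul_le_mul' le_rfl hvl
    _ = ENNReal.ofReal (Real.exp del) * (ENNReal.ofReal ((A * r + B * r) ^ n) * I) +
        ENNReal.ofReal ((A * r + B * r) ^ n) * (2 * ENNReal.ofReal del) := by ring
    _ ≤ _ := by
        refine add_le_add ?_ le_rfl
        exact mul_le_mul' le_rfl hcore

theorem gauss_T (n : ℕ) (T : EuclideanSpace ℝ (Fin n) ≃L[ℝ] EuclideanSpace ℝ (Fin n)) :
    ∫⁻ v : EuclideanSpace ℝ (Fin n), ENNReal.ofReal (Real.exp (-(‖T v‖ ^ 2 / 2))) =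
      ENNReal.ofReal
        (|LinearMap.det (T : EuclideanSpace ℝ (Fin n) →ₗ[ℝ] EuclideanSpace ℝ (Fin n))|⁻¹) *
      ENNReal.ofReal ((2 * Real.pi) ^ ((n : ℝ) / 2)) := by
  have hdet : LinearMap.det (T : EuclideanSpace ℝ (Fin n) →ₗ[ℝ] EuclideanSpace ℝ (Fin n)) ≠ 0 :=
    T.toLinearEquiv.isUnit_det'.ne_zero
  have h1 := Measure.map_linearMap_addHaar_eq_smul_addHaar
    (volume : Measure (EuclideanSpace ℝ (Fin n))) hdet
  have hTm : Measurable (T : EuclideanSpace ℝ (Fin n) → EuclideanSpace ℝ (Fin n)) :=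
    T.continuous.measurable
  have h2 : ∫⁻ v : EuclideanSpace ℝ (Fin n), ENNReal.ofReal (Real.exp (-(‖T v‖ ^ 2 / 2))) =
      ∫⁻ x, ENNReal.ofReal (Real.exp (-(‖x‖ ^ 2 / 2)))
        ∂(Measure.map (T : EuclideanSpace ℝ (Fin n) →ₗ[ℝ] EuclideanSpace ℝ (Fin n)) volume) := by
    have h3 : ((T : EuclideanSpace ℝ (Fin n) →ₗ[ℝ] EuclideanSpace ℝ (Fin n)) :
        EuclideanSpace ℝ (Fin n) → EuclideanSpace ℝ (Fin n)) = T := rfl
    rw [h3, lintegral_map (by fun_prop) hTm]
  rw [h2, h1, lintegral_smul_measure, gauss_lintegral, abs_inv, smul_eq_mul]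

/-- The limit theorem, operator form, `A, B > 0`. -/
theorem limit_pos {n : ℕ} {Q Q' : EuclideanSpace ℝ (Fin n) → ℝ}
    (T : EuclideanSpace ℝ (Fin n) ≃L[ℝ] EuclideanSpace ℝ (Fin n)) (hQ : ∀ v, Q v = ‖T v‖ ^ 2)
    (hQ' : ∀ v, Q' v = ‖T.symm v‖ ^ 2) {A B : ℝ} (hA : 0 < A) (hB : 0 < B)
    (h : ∀ R > 0, ∀ del > 0, ∃ (X : Type u) (_ : MeasurableSpace X) (m : Measure X) (S : Set X)
      (a b : X → ℝ) (L p q : X → EuclideanSpace ℝ (Fin n)), Data n Q Q' A B R del m S a b L p q) :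
    (A + B) ^ n ≤
      |LinearMap.det (T : EuclideanSpace ℝ (Fin n) →ₗ[ℝ] EuclideanSpace ℝ (Fin n))| ^ 2 := by
  set d := |LinearMap.det (T : EuclideanSpace ℝ (Fin n) →ₗ[ℝ] EuclideanSpace ℝ (Fin n))| with hd
  have hdet : LinearMap.det (T : EuclideanSpace ℝ (Fin n) →ₗ[ℝ] EuclideanSpace ℝ (Fin n)) ≠ 0 :=
    T.toLinearEquiv.isUnit_det'.ne_zero
  have hd0 : 0 < d := abs_pos.2 hdet
  obtain ⟨r, hr0, hrn⟩ : ∃ r : ℝ, 0 < r ∧ r ^ n = d⁻¹ := by
    rcases Nat.eq_zero_or_pos n with h | h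
    · refine ⟨1, one_pos, ?_⟩
      subst h
      have h1 : LinearMap.det (T : EuclideanSpace ℝ (Fin 0) →ₗ[ℝ] EuclideanSpace ℝ (Fin 0)) = 1 :=
        LinearMap.det_eq_one_of_finrank_eq_zero (by simp) _
      rw [hd, h1]; simp
    · refine ⟨(d⁻¹) ^ ((n : ℝ)⁻¹), by positivity, ?_⟩
      rw [← Real.rpow_natCast, ← Real.rpow_mul (by positivity),
        inv_mul_cancel₀ (by exact_mod_cast h.ne'), Real.rpow_one]
  set g := (2 * Real.pi) ^ ((n : ℝ) / 2) with hg
  have hg0 : 0 < g := by positivity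
  set c0 := ENNReal.ofReal ((A * r + B * r) ^ n) with hc0
  have hABr : 0 < A * r + B * r := by positivity
  have hs0 : 0 < A * r / (A * r + B * r) := by positivity
  have ht0 : 0 < B * r / (A * r + B * r) := by positivity
  -- fixed R, del -> 0
  have hfix : ∀ R > 0, c0 * ∫⁻ v in closedBall (0 : EuclideanSpace ℝ (Fin n)) R,
      ENNReal.ofReal (Real.exp (-(‖T v‖ ^ 2 / 2))) ≤ ENNReal.ofReal g := by
    intro R hR
    set vC := volume (closedBall (0 : EuclideanSpace ℝ (Fin n))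
      (‖(T : EuclideanSpace ℝ (Fin n) →L[ℝ] EuclideanSpace ℝ (Fin n))‖ * R * 2 + 3)) with hvC
    have hvCf : vC ≠ ∞ := measure_closedBall_lt_top.ne
    set cs := ENNReal.ofReal (((A * r / (A * r + B * r)) ^ n)⁻¹) with hcs
    set ct := ENNReal.ofReal (((B * r / (A * r + B * r)) ^ n)⁻¹) with hct
    set Er : ℝ≥0∞ → ℝ≥0∞ := fun δ => (cs * vC) ^ (A * r / (A * r + B * r)) *
      (ct * δ) ^ (B * r / (A * r + B * r)) + (cs * δ) ^ (A * r / (A * r + B * r)) *
      ((ct * vC) ^ (B * r / (A * r + B * r)) + (ct * δ) ^ (B * r / (A * r + B * r))) with hEr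
    have hEr0 : Tendsto Er (𝓝 0) (𝓝 0) :=
      tendsto_err _ _ hs0 ht0 cs ct vC ENNReal.ofReal_ne_top ENNReal.ofReal_ne_top hvCf
    have hlim0 : Tendsto (fun del : ℝ => ENNReal.ofReal del) (𝓝[>] 0) (𝓝 0) := by
      have := ENNReal.tendsto_ofReal (tendsto_id.mono_left nhdsWithin_le_nhds :
        Tendsto (fun del : ℝ => del) (𝓝[>] 0) (𝓝 0))
      simpa using this
    have hlim1 : Tendsto (fun del : ℝ => ENNReal.ofReal (r ^ n) * ENNReal.ofReal del)
        (𝓝[>] 0) (𝓝 0) := by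
      have := ENNReal.Tendsto.const_mul (a := ENNReal.ofReal (r ^ n)) hlim0
        (Or.inr ENNReal.ofReal_ne_top)
      simpa using this
    have hlimE : Tendsto (fun del : ℝ => Er (ENNReal.ofReal (r ^ n) * ENNReal.ofReal del))
        (𝓝[>] 0) (𝓝 0) := hEr0.comp hlim1
    have hexp : Tendsto (fun del : ℝ => Real.exp del) (𝓝[>] 0) (𝓝 1) := by
      have := (Real.continuous_exp.tendsto 0).mono_left
        (nhdsWithin_le_nhds : 𝓝[>] (0 : ℝ) ≤ 𝓝 0)
      simpa using this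
    have hexp1 : Tendsto (fun del : ℝ => ENNReal.ofReal (Real.exp del)) (𝓝[>] 0) (𝓝 1) := by
      simpa using ENNReal.tendsto_ofReal hexp
    have hexp2 : Tendsto (fun del : ℝ => ENNReal.ofReal (Real.exp del * g)) (𝓝[>] 0)
        (𝓝 (ENNReal.ofReal g)) := by
      simpa using ENNReal.tendsto_ofReal (hexp.mul_const g)
    have hlim : Tendsto (fun del : ℝ => ENNReal.ofReal (Real.exp del) *
        (ENNReal.ofReal (Real.exp del * g) + Er (ENNReal.ofReal (r ^ n) * ENNReal.ofReal del)) +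
        c0 * (2 * ENNReal.ofReal del)) (𝓝[>] 0) (𝓝 (1 * (ENNReal.ofReal g + 0) + c0 * (2 * 0))) := by
      refine Tendsto.add (ENNReal.Tendsto.mul hexp1 (Or.inr (by simp))
        (hexp2.add hlimE) (Or.inr (by simp))) ?_
      exact ENNReal.Tendsto.const_mul (ENNReal.Tendsto.const_mul hlim0 (Or.inr (by simp)))
        (Or.inr ENNReal.ofReal_ne_top)
    have hlim' : Tendsto (fun del : ℝ => ENNReal.ofReal (Real.exp del) *
        (ENNReal.ofReal (Real.exp del * g) + Er (ENNReal.ofReal (r ^ n) * ENNReal.ofReal del)) +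
        c0 * (2 * ENNReal.ofReal del)) (𝓝[>] 0) (𝓝 (ENNReal.ofReal g)) := by
      simpa using hlim
    refine ge_of_tendsto hlim' ?_
    have hev : ∀ᶠ del : ℝ in 𝓝[>] 0, del ∈ Ioo (0 : ℝ) 1 :=
      Ioo_mem_nhdsGT one_pos
    filter_upwards [hev] with del hdel
    obtain ⟨X, mX, m, S, a, b, L, p, q, hD⟩ := h R hR del hdel.1
    exact scale hD T hQ hQ' hA hB hR hdel.2.le hr0 hrn
  -- R -> infinity
  have hall : c0 * ∫⁻ v : EuclideanSpace ℝ (Fin n),
      ENNReal.ofReal (Real.exp (-(‖T v‖ ^ 2 / 2))) ≤ ENNReal.ofReal g := by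
    have hU : (⋃ k : ℕ, closedBall (0 : EuclideanSpace ℝ (Fin n)) ((k : ℝ) + 1)) = univ := by
      apply eq_univ_of_forall
      intro v
      obtain ⟨k, hk⟩ := exists_nat_ge ‖v‖
      exact mem_iUnion.2 ⟨k, by rw [mem_closedBall_zero_iff]; linarith⟩
    have hmono : Monotone fun k : ℕ => closedBall (0 : EuclideanSpace ℝ (Fin n)) ((k : ℝ) + 1) := by
      intro k l hkl
      apply closedBall_subset_closedBall
      have : (k : ℝ) ≤ l := by exact_mod_cast hkl
      linarith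
    rw [← setLIntegral_univ, ← hU, setLIntegral_iUnion_of_directed _ hmono.directed_le,
      ENNReal.mul_iSup]
    exact iSup_le fun k => hfix _ (by positivity)
  rw [gauss_T, ← hd, hc0, ← mul_assoc, ← ENNReal.ofReal_mul (by positivity),
    ← ENNReal.ofReal_mul (by positivity), ENNReal.ofReal_le_ofReal_iff hg0.le] at hall
  have h1 : (A * r + B * r) ^ n * d⁻¹ ≤ 1 := by
    by_contra hc
    push Not at hc
    nlinarith
  rw [← add_mul, mul_pow, hrn] at h1
  have h2 : (A + B) ^ n * d⁻¹ * d⁻¹ * d ^ 2 = (A + B) ^ n := by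
    field_simp
  calc (A + B) ^ n = (A + B) ^ n * d⁻¹ * d⁻¹ * d ^ 2 := h2.symm
    _ ≤ 1 * d ^ 2 := by gcongr
    _ = d ^ 2 := one_mul _

/-- swap the roles of the two ends -/
theorem Data.swap {X : Type*} [MeasurableSpace X] {n : ℕ}
    {Q Q' : EuclideanSpace ℝ (Fin n) → ℝ} {A B R del : ℝ} {m : Measure X} {S : Set X}
    {a b : X → ℝ} {L p q : X → EuclideanSpace ℝ (Fin n)} (h : Data n Q Q' A B R del m S a b L p q) :
    Data n Q Q' B A R del m S b a L q p where
  mS := h.mS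
  ma := h.mb
  mb := h.ma
  a0 := h.b0
  b0 := h.a0
  L1 := h.L1
  L2 := h.L2
  L3 := h.L3
  Ja := h.Jb
  Jb := h.Ja
  II := fun w hw w' hw' => by
    have := h.II w' hw' w hw
    rw [add_comm (q w), add_comm (b w)]
    exact this
  I := fun w hw => by
    have := h.I w hw
    rw [add_comm (b w)]
    exact this
  Z := by
    obtain ⟨z, hz, h1, h2⟩ := h.Z
    exact ⟨z, hz, h2, h1⟩

/-- one-sided inequality: no condition on `A`. -/
theorem limit_one {n : ℕ} {Q Q' : EuclideanSpace ℝ (Fin n) → ℝ}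
    (T : EuclideanSpace ℝ (Fin n) ≃L[ℝ] EuclideanSpace ℝ (Fin n)) (hQ : ∀ v, Q v = ‖T v‖ ^ 2)
    (hQ' : ∀ v, Q' v = ‖T.symm v‖ ^ 2) {A B : ℝ} (hB : 0 ≤ B)
    (h : ∀ R > 0, ∀ del > 0, ∃ (X : Type u) (_ : MeasurableSpace X) (m : Measure X) (S : Set X)
      (a b : X → ℝ) (L p q : X → EuclideanSpace ℝ (Fin n)), Data n Q Q' A B R del m S a b L p q) :
    B ^ n ≤
      |LinearMap.det (T : EuclideanSpace ℝ (Fin n) →ₗ[ℝ] EuclideanSpace ℝ (Fin n))| ^ 2 := by
  set d := |LinearMap.det (T : EuclideanSpace ℝ (Fin n) →ₗ[ℝ] EuclideanSpace ℝ (Fin n))| with hd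
  have hdet : LinearMap.det (T : EuclideanSpace ℝ (Fin n) →ₗ[ℝ] EuclideanSpace ℝ (Fin n)) ≠ 0 :=
    T.toLinearEquiv.isUnit_det'.ne_zero
  have hd0 : 0 < d := abs_pos.2 hdet
  set om := volume (ball (0 : EuclideanSpace ℝ (Fin n)) 1) with hom
  have hom0 : om ≠ 0 := (measure_ball_pos _ _ one_pos).ne'
  have homf : om ≠ ∞ := measure_ball_lt_top.ne
  set NT := ‖(T.symm : EuclideanSpace ℝ (Fin n) →L[ℝ] EuclideanSpace ℝ (Fin n))‖ with hNT
  have hNT0 : 0 ≤ NT := norm_nonneg _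
  set D : Set (EuclideanSpace ℝ (Fin n)) := {v | ‖T v‖ < 1} with hD
  have hDo : IsOpen D := isOpen_lt (by fun_prop) continuous_const
  have hDeq : D = T.symm '' ball 0 1 := by
    ext v
    simp only [hD, mem_ofPred_eq, mem_image, mem_ball_zero_iff]
    constructor
    · intro hv; exact ⟨T v, hv, T.symm_apply_apply v⟩
    · rintro ⟨u, hu, rfl⟩; rwa [T.apply_symm_apply]
  have hDvol : volume D = ENNReal.ofReal d⁻¹ * om := by
    rw [hDeq, Measure.addHaar_image_continuousLinearEquiv]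
    congr 2
    have h2 : LinearMap.det (T.symm : EuclideanSpace ℝ (Fin n) →ₗ[ℝ] EuclideanSpace ℝ (Fin n)) =
        (LinearMap.det (T : EuclideanSpace ℝ (Fin n) →ₗ[ℝ] EuclideanSpace ℝ (Fin n)))⁻¹ :=
      eq_inv_of_mul_eq_one_left T.toLinearEquiv.det_symm_mul_det
    rw [h2, abs_inv]
  have hkey : ∀ del : ℝ, 0 < del → ENNReal.ofReal (B ^ n) * (ENNReal.ofReal d⁻¹ * om) ≤
      (ENNReal.ofReal d * (ENNReal.ofReal (Real.sqrt (1 + 4 * del) ^ n) * om) +
        ENNReal.ofReal del) + ENNReal.ofReal (B ^ n) * (2 * ENNReal.ofReal del) := by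
    intro del hdel
    set R := NT + 1 with hR
    have hR0 : 0 < R := by positivity
    obtain ⟨X, mX, m, S, a, b, L, p, q, hh⟩ := h R hR0 del hdel
    obtain ⟨z, hz, haz, hbz⟩ := hh.Z
    have hma : Measurable (S.indicator a) := meas_ind hh.mS hh.ma
    have hmb : Measurable (S.indicator b) := meas_ind hh.mS hh.mb
    set E := {w | w ∈ S ∧ S.indicator a w + S.indicator b w ≤ 1 / 2 + del} with hE
    have hEm : MeasurableSet E := hh.mS.inter (measurableSet_le (hma.add hmb) measurable_const)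
    have hES : E ⊆ S := fun w hw => hw.1
    have hDB : D ⊆ closedBall 0 R := by
      intro v hv
      rw [mem_closedBall_zero_iff]
      have h1 : ‖v‖ ≤ NT * ‖T v‖ := by
        have := (T.symm : EuclideanSpace ℝ (Fin n) →L[ℝ] EuclideanSpace ℝ (Fin n)).le_opNorm (T v)
        simpa using this
      have h2 : ‖T v‖ < 1 := hv
      nlinarith
    have e1 : volume (closedBall (0 : EuclideanSpace ℝ (Fin n)) R) =
        volume D + volume (closedBall (0 : EuclideanSpace ℝ (Fin n)) R \ D) := by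
      have := (measure_inter_add_sdiff (μ := volume)
        (closedBall (0 : EuclideanSpace ℝ (Fin n)) R) hDo.measurableSet).symm
      rwa [inter_eq_self_of_subset_right hDB] at this
    have e2 : m S = m E + m (S \ E) := by
      have := (measure_inter_add_sdiff (μ := m) S hEm).symm
      rwa [inter_eq_self_of_subset_right hES] at this
    have e3 : m (S \ E) ≤ volume (closedBall (0 : EuclideanSpace ℝ (Fin n)) R \ D) +
        ENNReal.ofReal del := by
      refine (hh.L3 _ sdiff_subset (hh.mS.diff hEm)).trans (add_le_add (measure_mono ?_) le_rfl)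
      have hcl : IsClosed (closedBall (0 : EuclideanSpace ℝ (Fin n)) R \ D) :=
        isClosed_closedBall.sdiff hDo
      apply closure_minimal _ hcl
      rintro _ ⟨w, ⟨hwS, hwE⟩, rfl⟩
      refine ⟨by simpa using hh.L1 w hwS, fun hLD => hwE ⟨hwS, ?_⟩⟩
      rw [indicator_of_mem hwS, indicator_of_mem hwS]
      have h1 := hh.I w hwS
      rw [hQ] at h1
      have h2 : ‖T (L w)‖ < 1 := hLD
      have h3 : ‖T (L w)‖ ^ 2 ≤ 1 := by nlinarith [norm_nonneg (T (L w))]
      linarith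
    have hfin : volume (closedBall (0 : EuclideanSpace ℝ (Fin n)) R \ D) ≠ ∞ :=
      ne_top_of_le_ne_top measure_closedBall_lt_top.ne (measure_mono sdiff_subset)
    have e4 : volume D ≤ m E + 2 * ENNReal.ofReal del := by
      refine (ENNReal.add_le_add_iff_right hfin).1 ?_
      calc volume D + volume (closedBall (0 : EuclideanSpace ℝ (Fin n)) R \ D)
          = volume (closedBall (0 : EuclideanSpace ℝ (Fin n)) R) := e1.symm
        _ ≤ m S + ENNReal.ofReal del := hh.L2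
        _ = m E + m (S \ E) + ENNReal.ofReal del := by rw [e2]
        _ ≤ m E + (volume (closedBall (0 : EuclideanSpace ℝ (Fin n)) R \ D) +
            ENNReal.ofReal del) + ENNReal.ofReal del := by gcongr
        _ = _ := by ring
    have e5 : volume (closure (q '' E)) ≤
        ENNReal.ofReal d * (ENNReal.ofReal (Real.sqrt (1 + 4 * del) ^ n) * om) := by
      have h1 : closure (q '' E) ⊆
          (fun v => -(p z) + v) '' (T '' closedBall 0 (Real.sqrt (1 + 4 * del))) := by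
        apply closure_minimal
        · rintro _ ⟨w, ⟨hwS, hwE⟩, rfl⟩
          rw [indicator_of_mem hwS, indicator_of_mem hwS] at hwE
          refine ⟨p z + q w, ⟨T.symm (p z + q w), ?_, T.apply_symm_apply _⟩, by simp⟩
          rw [mem_closedBall_zero_iff]
          apply Real.le_sqrt_of_sq_le
          have h2 := hh.II z hz w hwS
          rw [hQ', haz] at h2
          have h3 := hh.a0 w hwS
          linarith
        · have h2 : IsCompact (T '' closedBall (0 : EuclideanSpace ℝ (Fin n))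
              (Real.sqrt (1 + 4 * del))) :=
            (isCompact_closedBall _ _).image T.continuous
          exact (h2.image (by fun_prop)).isClosed
      refine (measure_mono h1).trans (le_of_eq ?_)
      rw [image_add_left, neg_neg, measure_preimage_add,
        Measure.addHaar_image_continuousLinearEquiv,
        Measure.addHaar_closedBall _ _ (Real.sqrt_nonneg _), finrank_euclideanSpace,
        Fintype.card_fin]
    calc ENNReal.ofReal (B ^ n) * (ENNReal.ofReal d⁻¹ * om)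
        = ENNReal.ofReal (B ^ n) * volume D := by rw [hDvol]
      _ ≤ ENNReal.ofReal (B ^ n) * (m E + 2 * ENNReal.ofReal del) := mul_le_mul' le_rfl e4
      _ = ENNReal.ofReal (B ^ n) * m E + ENNReal.ofReal (B ^ n) * (2 * ENNReal.ofReal del) :=
          mul_add _ _ _
      _ ≤ _ := by
          refine add_le_add ?_ le_rfl
          refine (hh.Jb E hES hEm).trans (add_le_add e5 le_rfl)
  have hlim0 : Tendsto (fun del : ℝ => ENNReal.ofReal del) (𝓝[>] 0) (𝓝 0) := by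
    have := ENNReal.tendsto_ofReal (tendsto_id.mono_left nhdsWithin_le_nhds :
      Tendsto (fun del : ℝ => del) (𝓝[>] 0) (𝓝 0))
    simpa using this
  have hsq : Tendsto (fun del : ℝ => ENNReal.ofReal (Real.sqrt (1 + 4 * del) ^ n)) (𝓝[>] 0)
      (𝓝 1) := by
    have hc : Continuous fun del : ℝ => Real.sqrt (1 + 4 * del) ^ n := by fun_prop
    have := ENNReal.tendsto_ofReal ((hc.tendsto 0).mono_left
      (nhdsWithin_le_nhds : 𝓝[>] (0 : ℝ) ≤ 𝓝 0))
    simpa using this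
  have hlim : Tendsto (fun del : ℝ =>
      (ENNReal.ofReal d * (ENNReal.ofReal (Real.sqrt (1 + 4 * del) ^ n) * om) +
        ENNReal.ofReal del) + ENNReal.ofReal (B ^ n) * (2 * ENNReal.ofReal del)) (𝓝[>] 0)
      (𝓝 ((ENNReal.ofReal d * (1 * om) + 0) + ENNReal.ofReal (B ^ n) * (2 * 0))) := by
    refine Tendsto.add (Tendsto.add (ENNReal.Tendsto.const_mul
      (ENNReal.Tendsto.mul_const hsq (Or.inr homf)) (Or.inr ENNReal.ofReal_ne_top)) hlim0) ?_
    exact ENNReal.Tendsto.const_mul (ENNReal.Tendsto.const_mul hlim0 (Or.inr (by simp)))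
      (Or.inr ENNReal.ofReal_ne_top)
  have hfinal : ENNReal.ofReal (B ^ n) * (ENNReal.ofReal d⁻¹ * om) ≤ ENNReal.ofReal d * om := by
    have h1 := ge_of_tendsto hlim (by
      filter_upwards [self_mem_nhdsWithin] with del hdel
      exact hkey del hdel)
    simpa using h1
  rw [← mul_assoc, ← ENNReal.ofReal_mul (by positivity), ENNReal.mul_le_mul_iff_left hom0 homf,
    ENNReal.ofReal_le_ofReal_iff hd0.le] at hfinal
  have h2 : B ^ n = B ^ n * d⁻¹ * d := by field_simp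
  calc B ^ n = B ^ n * d⁻¹ * d := h2
    _ ≤ d * d := by gcongr
    _ = d ^ 2 := by ring

/-- **Blow.limit**: operator form, `A, B ≥ 0`. -/
theorem limit {n : ℕ} {Q Q' : EuclideanSpace ℝ (Fin n) → ℝ}
    (T : EuclideanSpace ℝ (Fin n) ≃L[ℝ] EuclideanSpace ℝ (Fin n)) (hQ : ∀ v, Q v = ‖T v‖ ^ 2)
    (hQ' : ∀ v, Q' v = ‖T.symm v‖ ^ 2) {A B : ℝ} (hA : 0 ≤ A) (hB : 0 ≤ B)
    (h : ∀ R > 0, ∀ del > 0, ∃ (X : Type u) (_ : MeasurableSpace X) (m : Measure X) (S : Set X)
      (a b : X → ℝ) (L p q : X → EuclideanSpace ℝ (Fin n)), Data n Q Q' A B R del m S a b L p q) :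
    (A + B) ^ n ≤
      |LinearMap.det (T : EuclideanSpace ℝ (Fin n) →ₗ[ℝ] EuclideanSpace ℝ (Fin n))| ^ 2 := by
  rcases hA.eq_or_lt with h1 | h1
  · subst h1
    rw [zero_add]
    exact limit_one T hQ hQ' hB h
  · rcases hB.eq_or_lt with h2 | h2
    · subst h2
      rw [add_zero]
      refine limit_one (A := 0) T hQ hQ' hA fun R hR del hdel => ?_
      obtain ⟨X, mX, m, S, a, b, L, p, q, hh⟩ := h R hR del hdel
      exact ⟨X, mX, m, S, b, a, L, q, p, hh.swap⟩
    · exact limit_pos T hQ hQ' h1 h2 h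

/-- the operator `α` on the hyperplane orthogonal to `e`, `β` on the line of `e` -/
noncomputable def opT {n : ℕ} (α β : ℝ) (e : EuclideanSpace ℝ (Fin n)) :
    EuclideanSpace ℝ (Fin n) →L[ℝ] EuclideanSpace ℝ (Fin n) :=
  α • ContinuousLinearMap.id ℝ _ + (β - α) • (innerSL ℝ e).smulRight e

theorem opT_apply {n : ℕ} (α β : ℝ) (e v : EuclideanSpace ℝ (Fin n)) :
    opT α β e v = α • v + ((β - α) * inner ℝ e v) • e := by
  simp [opT, smul_smul]

theorem opT_comp {n : ℕ} {α β : ℝ} (hα : α ≠ 0) (hβ : β ≠ 0) {e : EuclideanSpace ℝ (Fin n)}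
    (he : ‖e‖ = 1) (v : EuclideanSpace ℝ (Fin n)) :
    opT α β e (opT α⁻¹ β⁻¹ e v) = v := by
  have hee : inner ℝ e e = (1 : ℝ) := by rw [real_inner_self_eq_norm_sq, he]; norm_num
  rw [opT_apply, opT_apply, inner_add_right, inner_smul_right, inner_smul_right, hee]
  rw [smul_add, smul_smul, smul_smul, mul_inv_cancel₀ hα, one_smul, add_assoc, ← add_smul]
  have : α * ((β⁻¹ - α⁻¹) * inner ℝ e v) +
      (β - α) * (α⁻¹ * inner ℝ e v + (β⁻¹ - α⁻¹) * inner ℝ e v * 1) = 0 := by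
    field_simp
    ring
  rw [this, zero_smul, add_zero]

theorem opT_norm {n : ℕ} (α β : ℝ) {e : EuclideanSpace ℝ (Fin n)}
    (he : ‖e‖ = 1) (v : EuclideanSpace ℝ (Fin n)) :
    ‖opT α β e v‖ ^ 2 = β ^ 2 * inner ℝ v e ^ 2 + α ^ 2 * (‖v‖ ^ 2 - inner ℝ v e ^ 2) := by
  rw [opT_apply, norm_add_sq_real, norm_smul, norm_smul, inner_smul_left, inner_smul_right, he,
    real_inner_comm e v]
  simp only [mul_pow, Real.norm_eq_abs, sq_abs, mul_one, conj_trivial]
  ring

theorem opT_det {n : ℕ} (hn : 1 ≤ n) {α β : ℝ} (hα : α ≠ 0) {e : EuclideanSpace ℝ (Fin n)}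
    (he : ‖e‖ = 1) :
    LinearMap.det (opT α β e : EuclideanSpace ℝ (Fin n) →ₗ[ℝ] EuclideanSpace ℝ (Fin n)) =
      α ^ (n - 1) * β := by
  have hee : inner ℝ e e = (1 : ℝ) := by rw [real_inner_self_eq_norm_sq, he]; norm_num
  have h1 : (opT α β e : EuclideanSpace ℝ (Fin n) →ₗ[ℝ] EuclideanSpace ℝ (Fin n)) =
      α • LinearMap.transvection (((β - α) / α) • (innerSL ℝ e).toLinearMap) e := by
    ext1 v
    rw [ContinuousLinearMap.coe_coe, opT_apply, LinearMap.smul_apply,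
      LinearMap.transvection.apply]
    simp only [LinearMap.smul_apply, ContinuousLinearMap.coe_coe, innerSL_apply_apply,
      smul_eq_mul, smul_add, smul_smul]
    congr 2
    field_simp
  rw [h1, LinearMap.det_smul, LinearMap.transvection.det, finrank_euclideanSpace, Fintype.card_fin]
  simp only [LinearMap.smul_apply, ContinuousLinearMap.coe_coe, innerSL_apply_apply, smul_eq_mul,
    hee]
  obtain ⟨k, rfl⟩ := Nat.exists_eq_add_of_le hn
  rw [Nat.add_sub_cancel_left, pow_add]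
  field_simp
  ring

/-- **Blow.radial**: the form used at an intermediate point. -/
theorem radial {n : ℕ} (hn : 1 ≤ n) {D1 D2 : ℝ} (h1 : 0 < D1) (h2 : 0 < D2)
    {e : EuclideanSpace ℝ (Fin n)} (he : ‖e‖ = 1) {A B : ℝ} (hA : 0 ≤ A) (hB : 0 ≤ B)
    (h : ∀ R > 0, ∀ del > 0, ∃ (X : Type u) (_ : MeasurableSpace X) (m : Measure X) (S : Set X)
      (a b : X → ℝ) (L p q : X → EuclideanSpace ℝ (Fin n)),
      Data n (fun v => D1 * inner ℝ v e ^ 2 + D2 * (‖v‖ ^ 2 - inner ℝ v e ^ 2))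
        (fun v => inner ℝ v e ^ 2 / D1 + (‖v‖ ^ 2 - inner ℝ v e ^ 2) / D2)
        A B R del m S a b L p q) :
    (A + B) ^ n ≤ D1 * D2 ^ (n - 1) := by
  have s1 : 0 < Real.sqrt D1 := Real.sqrt_pos.2 h1
  have s2 : 0 < Real.sqrt D2 := Real.sqrt_pos.2 h2
  set T : EuclideanSpace ℝ (Fin n) ≃L[ℝ] EuclideanSpace ℝ (Fin n) :=
    ContinuousLinearEquiv.equivOfInverse (opT (Real.sqrt D2) (Real.sqrt D1) e)
      (opT (Real.sqrt D2)⁻¹ (Real.sqrt D1)⁻¹ e)
      (fun v => by
        have := opT_comp (inv_ne_zero s2.ne') (inv_ne_zero s1.ne') he v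
        simpa using this)
      (fun v => opT_comp s2.ne' s1.ne' he v) with hT
  have hTa : ∀ v, T v = opT (Real.sqrt D2) (Real.sqrt D1) e v := fun v => rfl
  have hTs : ∀ v, T.symm v = opT (Real.sqrt D2)⁻¹ (Real.sqrt D1)⁻¹ e v := fun v => rfl
  have hlim := limit T (Q := fun v => D1 * inner ℝ v e ^ 2 + D2 * (‖v‖ ^ 2 - inner ℝ v e ^ 2))
    (Q' := fun v => inner ℝ v e ^ 2 / D1 + (‖v‖ ^ 2 - inner ℝ v e ^ 2) / D2)
    (fun v => by
      rw [hTa, opT_norm _ _ he, Real.sq_sqrt h1.le, Real.sq_sqrt h2.le])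
    (fun v => by
      rw [hTs, opT_norm _ _ he, inv_pow, inv_pow, Real.sq_sqrt h1.le, Real.sq_sqrt h2.le]
      simp only [div_eq_inv_mul]) hA hB h
  have hdet : LinearMap.det (T : EuclideanSpace ℝ (Fin n) →ₗ[ℝ] EuclideanSpace ℝ (Fin n)) =
      Real.sqrt D2 ^ (n - 1) * Real.sqrt D1 := opT_det hn s2.ne' he
  rw [hdet, sq_abs, mul_pow, ← pow_mul, mul_comm (n - 1) 2, pow_mul, Real.sq_sqrt h1.le,
    Real.sq_sqrt h2.le] at hlim
  linarith [mul_comm D1 (D2 ^ (n - 1))]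

/-- **Blow.claim**: algebra from `radial` to the `τ`-inequality. -/
theorem claim {n : ℕ} (hn : 1 ≤ n) {s θ sa sb st Jm Jp A B : ℝ} (hs : 0 < s) (hs1 : s < 1)
    (hθ : 0 < θ) (hsa : 0 < sa) (hsb : 0 < sb) (hst : 0 < st)
    (hA : 0 ≤ A) (hB : 0 ≤ B)
    (hAn : A ^ n = Jm * (s * θ / sa) ^ (n - 1) * (s ^ n)⁻¹)
    (hBn : B ^ n = Jp * ((1 - s) * θ / sb) ^ (n - 1) * ((1 - s) ^ n)⁻¹)
    (h : (A + B) ^ n ≤ 1 / (s * (1 - s)) * (θ * st / (sa * sb)) ^ (n - 1)) :
    ((1 - s) * (sb / st) ^ (n - 1) * Jm) ^ ((1 : ℝ) / n) +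
      (s * (sa / st) ^ (n - 1) * Jp) ^ ((1 : ℝ) / n) ≤ 1 := by
  have h1s : 0 < 1 - s := by linarith
  have hn0 : (n : ℝ) ≠ 0 := by positivity
  set Dd := 1 / (s * (1 - s)) * (θ * st / (sa * sb)) ^ (n - 1) with hDd
  have hDd0 : 0 < Dd := by positivity
  obtain ⟨k, rfl⟩ := Nat.exists_eq_add_of_le hn
  have e1 : (1 - s) * (sb / st) ^ (1 + k - 1) * Jm = A ^ (1 + k) / Dd := by
    rw [hAn, hDd, Nat.add_sub_cancel_left]
    simp only [div_pow, mul_pow, pow_add, pow_one]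
    field_simp
  have e2 : s * (sa / st) ^ (1 + k - 1) * Jp = B ^ (1 + k) / Dd := by
    rw [hBn, hDd, Nat.add_sub_cancel_left]
    simp only [div_pow, mul_pow, pow_add, pow_one]
    field_simp
  have hroot : ∀ C : ℝ, 0 ≤ C → (C ^ (1 + k) / Dd) ^ ((1 : ℝ) / ((1 + k : ℕ) : ℝ)) =
      C / Dd ^ ((1 : ℝ) / ((1 + k : ℕ) : ℝ)) := by
    intro C hC
    rw [Real.div_rpow (by positivity) hDd0.le, ← Real.rpow_natCast, ← Real.rpow_mul hC,
      mul_one_div_cancel hn0, Real.rpow_one]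
  rw [e1, e2, hroot A hA, hroot B hB, ← add_div, div_le_one (by positivity)]
  have h3 := Real.rpow_le_rpow (by positivity) h (z := (1 : ℝ) / ((1 + k : ℕ) : ℝ)) (by positivity)
  rwa [← Real.rpow_natCast, ← Real.rpow_mul (by positivity), mul_one_div_cancel hn0,
    Real.rpow_one] at h3

end Vale.Agent.P233.H979.Blow
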